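import Vale.Agent.P143.Main

set_option autoImplicit false

namespace Vale.Agent.Results.P143.Full

open MeasureTheory Vale.Agent.P143

/-- Full positive answer, in both halves.

1. For every finitely generated group `Γ` and every finite generating set `S`, the free uniform
spanning forest of the Cayley graph exists and is a `Γ`-factor of IID.

2. There is one single rule `Φ` (a measurable isomorphism invariant function of a graph with
labelled vertices and a distinguished pair) such that for every unimodular random rooted infinite
connected locally finite graph, for almost every graph `G`, the edges selected by `Φ` from i.i.d.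
uniform vertex labels form the free uniform spanning forest of `G`. -/
theorem result :
    (∀ (Γ : Type) [Group Γ] (S : Set Γ), S.Finite → Subgroup.closure S = ⊤ →
      ∃ μ : Measure (Set (Sym2 Γ)),
        IsFUSF (SimpleGraph.mulCayley S) μ ∧ IsGroupFactorOfIID μ) ∧
    (∃ Φ : SimpleGraph ℕ → (ℕ → unitInterval) → Sym2 ℕ → Prop, IsGraphRule Φ ∧
      ∀ ρ : Measure (SimpleGraph ℕ × ℕ), IsProbabilityMeasure ρ →
        (∀ᵐ p ∂ρ, p.1.Connected ∧ LocFin p.1) → IsUnimodular ρ →
          ∀ᵐ p ∂ρ, IsFUSF p.1
            ((iidUniform ℕ).map fun U => {e | e ∈ p.1.edgeSet ∧ Φ p.1 U e})) :=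
  ⟨fun Γ _ S hS hgen => cayley_of_main (fun V _ _ _ => main V) Γ S hS hgen, main ℕ⟩

end Vale.Agent.Results.P143.Full
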